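import Mathlib
import Vale.Agent.Lib.P186.Defs
import Vale.Agent.Lib.P186.Reduction

namespace Vale.Agent.Results.P186.SeparateGenerators

open Vale.Agent.Lib.P186

universe u

/-- All word-hyperbolic groups are residually finite if and only if, in every group with a
finite generating set `T` whose Cayley graph has `2`-thin geodesic triangles, every
nontrivial element of `T` lies outside some finite-index subgroup. -/
theorem result :
    (∀ (G : Type u) [Group G], IsWordHyperbolic G → Group.ResiduallyFinite G) ↔
    (∀ (G : Type u) [Group G] (T : Set G), T.Finite → Subgroup.closure T = ⊤ →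
      ThinTriangles (SimpleGraph.mulCayley T) 2 →
      ∀ t ∈ T, t ≠ 1 → ∃ H : Subgroup G, H.FiniteIndex ∧ t ∉ H) :=
  separation_reduction

end Vale.Agent.Results.P186.SeparateGenerators
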