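import Mathlib
import Vale.Agent.Lib.P186.Defs
import Vale.Agent.Lib.P186.Reduction

namespace Vale.Agent.Results.P186.UniformThin

open Vale.Agent.Lib.P186

/-- Every word-hyperbolic group has, for each finite subset `F`, a finite generating set
containing the nontrivial elements of `F` whose Cayley graph has `2`-thin geodesic triangles. -/
theorem result (G : Type*) [Group G] (h : IsWordHyperbolic G) (F : Set G) (hF : F.Finite) :
    ∃ T : Set G, T.Finite ∧ Subgroup.closure T = ⊤ ∧ F \ {1} ⊆ T ∧
      ThinTriangles (SimpleGraph.mulCayley T) 2 :=
  uniform_thin_containing G h F hF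

end Vale.Agent.Results.P186.UniformThin
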